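import Vale.Agent.P048.Defs
import Vale.Agent.P048.Main

namespace Vale.Agent.Results.P048.EFRS

open Vale.Agent.P048

theorem result (m n : ℕ) (hn : 3 ≤ n) (hnm : n ≤ m) (h : ¬ (m = 3 ∧ n = 3)) :
    IsLeast {N : ℕ | Arrows m n N} ((m - 1) * (n - 1) + 1) :=
  main m n hn hnm h

end Vale.Agent.Results.P048.EFRS
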